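import Vale.Agent.P083V.Seq

/-!
# P083 (Kirchberg's embedding problem): free products of Cuntz and Cuntz-Toeplitz algebras

Statement with library notions only, and in a stronger, explicit form.  `(A, v)` is the universal
unital C*-algebra generated by isometries `v i`, split into groups by `grp`, such that different
generators of one group have orthogonal ranges and the range projections of every group marked
`full` add up to `1`.  `B` is a nonzero unital C*-algebra generated by two isometries `s₁, s₂` with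
`s₁ s₁* + s₂ s₂* = 1`, i.e. a copy of `O₂`.  Then there are unital star-homomorphisms
`ψ n : A → B` with `‖ψ n a‖ → ‖a‖` for every `a`.  So `a ↦ (ψ n a)_n` is a unital star-homomorphism
from `A` to the bounded sequences in `B`, and for every free ultrafilter `ω` the class of
`(ψ n a)_n` in the norm ultrapower has norm `lim_ω ‖ψ n a‖ = ‖a‖`.
-/

open Filter Topology

universe u

theorem Vale.Agent.Results.P083.AsymptoticHoms.result
    {ι G : Type} [Fintype ι] [DecidableEq G] (grp : ι → G) (full : G → Prop)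
    (A : Type u) [CStarAlgebra A] (v : ι → A)
    (hiso : ∀ i, star (v i) * v i = 1)
    (horth : ∀ i j, i ≠ j → grp i = grp j → star (v i) * v j = 0)
    (hsum : ∀ i, full (grp i) →
      ∑ j ∈ Finset.univ.filter (fun j => grp j = grp i), v j * star (v j) = 1)
    (hgen : (StarAlgebra.adjoin ℂ (Set.range v)).topologicalClosure = ⊤)
    (huniv : ∀ (C : Type u) [CStarAlgebra C] (w : ι → C),
      (∀ i, star (w i) * w i = 1) →
      (∀ i j, i ≠ j → grp i = grp j → star (w i) * w j = 0) →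
      (∀ i, full (grp i) →
        ∑ j ∈ Finset.univ.filter (fun j => grp j = grp i), w j * star (w j) = 1) →
      ∃ φ : A →⋆ₐ[ℂ] C, ∀ i, φ (v i) = w i)
    (B : Type u) [CStarAlgebra B] [Nontrivial B] (s₁ s₂ : B)
    (h₁ : star s₁ * s₁ = 1) (h₂ : star s₂ * s₂ = 1) (h₃ : s₁ * star s₁ + s₂ * star s₂ = 1)
    (hBgen : (StarAlgebra.adjoin ℂ ({s₁, s₂} : Set B)).topologicalClosure = ⊤) :
    ∃ ψ : ℕ → (A →⋆ₐ[ℂ] B),
      (∀ a n, ‖ψ n a‖ ≤ ‖a‖) ∧
      (∀ a, Tendsto (fun n => ‖ψ n a‖) atTop (𝓝 ‖a‖)) ∧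
      (∀ ω : Ultrafilter ℕ, (ω : Filter ℕ) ≤ cofinite →
        ∀ a, Tendsto (fun n => ‖ψ n a‖) (ω : Filter ℕ) (𝓝 ‖a‖)) := by
  obtain ⟨ψ, hψ⟩ := Vale.Agent.P083V.universal_cuntzType_algebra_seq grp full A v
    ⟨⟨hiso, horth, hsum⟩, hgen, fun C _ w hw => huniv C w hw.iso hw.orth hw.sum_eq⟩ B
    ⟨inferInstance, s₁, s₂, ⟨h₁, h₂, h₃⟩, hBgen⟩
  refine ⟨ψ, fun a n => NonUnitalStarAlgHom.norm_apply_le _ a, hψ, fun ω hω a => ?_⟩
  exact (hψ a).mono_left (by rw [← Nat.cofinite_eq_atTop]; exact hω)
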