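import Vale.Agent.P083.Main2

/-!
# P083 (Kirchberg's embedding problem): free products of Cuntz and Cuntz-Toeplitz algebras

Every unital full free product of finitely many Cuntz algebras `O_n` (with `O_1 = C(T)`) and
Cuntz-Toeplitz algebras `E_n` (with `E_1` the Toeplitz algebra), presented as the universal unital
C*-algebra generated by a family of Cuntz type, admits a unital embedding into the norm ultrapower
of `O₂`, for every free ultrafilter.
-/

open Vale.Agent.P083

universe u

theorem Vale.Agent.Results.P083.CuntzFreeProducts.result
    {ι G : Type} [Fintype ι] [DecidableEq G] (grp : ι → G) (full : G → Prop)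
    (A : Type u) [CStarAlgebra A] (v : ι → A) (hA : IsUniversalCuntzTypeAlgebra grp full A v)
    (B : Type u) [CStarAlgebra B] (hB : IsCuntzO2 B)
    (ω : Ultrafilter ℕ) (hω : (ω : Filter ℕ) ≤ Filter.cofinite) :
    UnitallyEmbedsInUltrapower A B ω :=
  universal_cuntzType_algebra_embeds grp full A v hA B hB ω hω
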