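import Vale.Agent.P083.Main

/-!
# P083 (Kirchberg's embedding problem): universal C*-algebras generated by isometries

For every finite index set `ι` and every irreflexive relation `R` on `ι`, the universal unital
C*-algebra generated by isometries `v i` subject to `(v i)* (v j) = 0` for `R i j` admits a unital
embedding into the norm ultrapower of the Cuntz algebra `O₂`, for every free ultrafilter.
For the empty relation and two generators this is the unital full free product of two copies of
the Toeplitz algebra, which is neither exact nor quasidiagonal.
-/

open Vale.Agent.P083

universe u

theorem Vale.Agent.Results.P083.FreeIsometries.result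
    {ι : Type} [Fintype ι] (R : ι → ι → Prop) (hR : ∀ i, ¬ R i i)
    (A : Type u) [CStarAlgebra A] (v : ι → A) (hA : IsUniversalIsometryAlgebra R A v)
    (B : Type u) [CStarAlgebra B] (hB : IsCuntzO2 B)
    (ω : Ultrafilter ℕ) (hω : (ω : Filter ℕ) ≤ Filter.cofinite) :
    UnitallyEmbedsInUltrapower A B ω :=
  universal_isometry_algebra_embeds R hR A v hA B hB ω hω
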