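import Vale.Agent.P083.O2O2

/-!
# P083 (Kirchberg's embedding problem): the unital full free product `O₂ * O₂`

The universal unital C*-algebra generated by two Cuntz pairs, that is the unital full free product
of two copies of the Cuntz algebra `O₂`, admits a unital embedding into the norm ultrapower of
`O₂`, for every free ultrafilter.
-/

open Vale.Agent.P083

universe u

theorem Vale.Agent.Results.P083.O2FreeO2.result
    (A : Type u) [CStarAlgebra A] (a₁ a₂ b₁ b₂ : A) (hA : IsFreeProductO2O2 A a₁ a₂ b₁ b₂)
    (B : Type u) [CStarAlgebra B] (hB : IsCuntzO2 B)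
    (ω : Ultrafilter ℕ) (hω : (ω : Filter ℕ) ≤ Filter.cofinite) :
    UnitallyEmbedsInUltrapower A B ω :=
  freeProductO2O2_embeds A a₁ a₂ b₁ b₂ hA B hB ω hω
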